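import Vale.Agent.P371.Lower

namespace Vale.Agent.Results.P371.SharpLT

open Vale.Agent.P371

theorem result (γ : ℝ) (hγ : 1 / 2 < γ) (hγ' : γ < 3 / 2) (m : ℕ) (hm : 1 ≤ m) :
    LT γ m = ENNReal.ofReal (2 * ((γ - 1 / 2) / (γ + 1 / 2)) ^ (γ - 1 / 2) *
      (Real.Gamma (γ + 1) / (2 * √Real.pi * Real.Gamma (γ + 3 / 2)))) := by
  obtain ⟨α, rfl⟩ : ∃ α, γ = α + 1 / 2 := ⟨γ - 1 / 2, by ring⟩
  have h0 : 0 < α := by linarith
  rw [LT_eq h0 (by linarith) hm, JJ_eq h0, cp]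
  congr 1
  have e1 : α + 1 / 2 - 1 / 2 = α := by ring
  have e2 : α + 1 / 2 + 1 / 2 = α + 1 := by ring
  have e3 : α + 1 / 2 + 1 = α + 3 / 2 := by ring
  have e4 : α + 1 / 2 + 3 / 2 = α + 1 + 1 := by ring
  rw [e1, e2, e3, e4, Real.Gamma_add_one (s := α + 1) (by linarith)]
  have := Real.Gamma_pos_of_pos (show 0 < α + 1 by linarith)
  have := Real.Gamma_pos_of_pos (show 0 < α + 3 / 2 by linarith)
  have := Real.pi_pos
  field_simp

end Vale.Agent.Results.P371.SharpLT
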